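import Vale.Agent.P295.Aff

/-! P295: stable coordinates of degree at most two, or affine in all variables but one, are
coordinates. -/

namespace Vale.Agent.Results.P295.LowDegree

open MvPolynomial Vale.P295

theorem stable_of_coord {n : ℕ} (f : MvPolynomial (Fin n) ℂ) (h : IsCoordinate f) :
    IsStableCoordinate f := by
  obtain ⟨φ, i, hi⟩ := h
  obtain ⟨F, hF⟩ : ∃ F : MvPolynomial (Fin n ⊕ Fin 1) ℂ →ₐ[ℂ] MvPolynomial (Fin n ⊕ Fin 1) ℂ,
      F = aeval (Sum.elim (fun k => rename Sum.inl (φ (X k))) (fun j => X (Sum.inr j))) :=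
    ⟨_, rfl⟩
  obtain ⟨G, hG⟩ : ∃ G : MvPolynomial (Fin n ⊕ Fin 1) ℂ →ₐ[ℂ] MvPolynomial (Fin n ⊕ Fin 1) ℂ,
      G = aeval (Sum.elim (fun k => rename Sum.inl (φ.symm (X k))) (fun j => X (Sum.inr j))) :=
    ⟨_, rfl⟩
  have F1 : ∀ p : MvPolynomial (Fin n) ℂ, F (rename Sum.inl p) = rename Sum.inl (φ p) := by
    intro p
    have e : F.comp (rename Sum.inl) = (rename Sum.inl).comp φ.toAlgHom := by
      apply MvPolynomial.algHom_ext
      intro k
      rw [AlgHom.comp_apply, rename_X, hF, aeval_X]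
      rfl
    exact DFunLike.congr_fun e p
  have G1 : ∀ p : MvPolynomial (Fin n) ℂ, G (rename Sum.inl p) = rename Sum.inl (φ.symm p) := by
    intro p
    have e : G.comp (rename Sum.inl) = (rename Sum.inl).comp φ.symm.toAlgHom := by
      apply MvPolynomial.algHom_ext
      intro k
      rw [AlgHom.comp_apply, rename_X, hG, aeval_X]
      rfl
    exact DFunLike.congr_fun e p
  have F2 : ∀ j, F (X (Sum.inr j)) = X (Sum.inr j) := fun j => by rw [hF, aeval_X]; rfl
  have G2 : ∀ j, G (X (Sum.inr j)) = X (Sum.inr j) := fun j => by rw [hG, aeval_X]; rfl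
  have e1 : F.comp G = AlgHom.id ℂ _ := by
    apply MvPolynomial.algHom_ext
    rintro (k | j)
    · have h1 : (X (Sum.inl k) : MvPolynomial (Fin n ⊕ Fin 1) ℂ) = rename Sum.inl (X k) :=
        (rename_X _ _).symm
      rw [AlgHom.comp_apply, h1, G1, F1, φ.apply_symm_apply]
      rfl
    · rw [AlgHom.comp_apply, G2, F2]
      rfl
  have e2 : G.comp F = AlgHom.id ℂ _ := by
    apply MvPolynomial.algHom_ext
    rintro (k | j)
    · have h1 : (X (Sum.inl k) : MvPolynomial (Fin n ⊕ Fin 1) ℂ) = rename Sum.inl (X k) :=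
        (rename_X _ _).symm
      rw [AlgHom.comp_apply, h1, F1, G1, φ.symm_apply_apply]
      rfl
    · rw [AlgHom.comp_apply, F2, G2]
      rfl
  refine ⟨1, le_rfl, AlgEquiv.ofAlgHom F G e1 e2, Sum.inl i, ?_⟩
  change F (rename Sum.inl f) = X (Sum.inl i)
  rw [F1, hi, rename_X]

/-- For every `n`: (1) a stable coordinate of total degree at most two is a coordinate, and for
polynomials of total degree at most two both properties are equivalent to the absence of critical
points; (2) a stable coordinate of the form `a_0(x_i) + ∑_{j ≠ i} a_j(x_i) x_j` is a coordinate. -/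
theorem result (n : ℕ) (f : MvPolynomial (Fin n) ℂ) :
    (f.totalDegree ≤ 2 →
      (IsStableCoordinate f → IsCoordinate f) ∧
      (IsCoordinate f ↔ ∀ p : Fin n → ℂ, ∃ j, eval p (pderiv j f) ≠ 0) ∧
      (IsStableCoordinate f ↔ ∀ p : Fin n → ℂ, ∃ j, eval p (pderiv j f) ≠ 0)) ∧
    (∀ (i : Fin n) (a0 : Polynomial ℂ) (a : Fin n → Polynomial ℂ),
      f = Polynomial.aeval (X i) a0 +
        ∑ j ∈ Finset.univ.erase i, Polynomial.aeval (X i) (a j) * X j →
      IsStableCoordinate f → IsCoordinate f) := by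
  refine ⟨fun hd => ⟨fun h => quad f hd (crit_stable f h), ⟨fun h => crit f h, fun h =>
    quad f hd h⟩, ⟨fun h => crit_stable f h, fun h => stable_of_coord f (quad f hd h)⟩⟩,
    fun i a0 a hf h => ?_⟩
  subst hf
  exact affine_case i a0 a h

end Vale.Agent.Results.P295.LowDegree
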